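import Vale.Agent.P075.Adm

open MeasureTheory Vale.Agent.P075

/-- Q2: the dyadic triangular Hilbert form is bounded on `L³ × L³ × L³`, uniformly in the set of
scales and in the coefficients. -/
theorem Vale.Agent.Results.P075.DyadicQ2.result :
    ∃ C : ℝ, ∀ F₀ F₁ F₂ : ℝ × ℝ → ℝ, Admissible F₀ → Admissible F₁ → Admissible F₂ →
      (∀ (k : ℤ) (n : ℕ × ℕ × ℕ), IntegrableOn (integrand F₀ F₁ F₂ k n) (cube k n)) ∧
      (∀ k : ℤ, Summable fun n : triples => localForm F₀ F₁ F₂ k n) ∧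
      ∀ (S : Finset ℤ) (ε : ℤ → ℝ), (∀ k ∈ S, |ε k| ≤ 1) →
        |dyadicForm S ε F₀ F₁ F₂| ≤ C * (norm3 F₀ * norm3 F₁ * norm3 F₂) :=
  ⟨60, fun _ _ _ h₀ h₁ h₂ =>
    ⟨(main h₀.memLp h₁.memLp h₂.memLp).1,
      fun k => ((main h₀.memLp h₁.memLp h₂.memLp).2.1 k).of_abs,
      (main h₀.memLp h₁.memLp h₂.memLp).2.2.2⟩⟩
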