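import Vale.Agent.P075.Main

open MeasureTheory Vale.Agent.P075

/-- Q2 for all `L³` inputs, with the absolute values inside the sums and the constant 60. -/
theorem Vale.Agent.Results.P075.DyadicStrong.result (F₀ F₁ F₂ : ℝ × ℝ → ℝ)
    (h₀ : MemLp F₀ 3 (volume.restrict quad)) (h₁ : MemLp F₁ 3 (volume.restrict quad))
    (h₂ : MemLp F₂ 3 (volume.restrict quad)) :
    (∀ (k : ℤ) (n : ℕ × ℕ × ℕ), IntegrableOn (integrand F₀ F₁ F₂ k n) (cube k n)) ∧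
    (∀ k : ℤ, Summable fun n : triples => |localForm F₀ F₁ F₂ k n|) ∧
    (∀ S : Finset ℤ, ∑ k ∈ S, ∑' n : triples, |localForm F₀ F₁ F₂ k n|
      ≤ 60 * (norm3 F₀ * norm3 F₁ * norm3 F₂)) ∧
    ∀ (S : Finset ℤ) (ε : ℤ → ℝ), (∀ k ∈ S, |ε k| ≤ 1) →
      |dyadicForm S ε F₀ F₁ F₂| ≤ 60 * (norm3 F₀ * norm3 F₁ * norm3 F₂) :=
  main h₀ h₁ h₂
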